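import Vale.Agent.Lib.P154.Ineq3.Pot3
import Vale.Agent.Lib.P154.PotGW

/-!
Three-state ferromagnetic Potts channel on trees: non-reconstruction holds at and below the
Kesten-Stigum bound, on every regular tree and on every Poisson Galton-Watson tree.
-/

namespace Vale.Agent.Results.P154.FerroThree

open Filter Topology
open Vale.Agent.Lib.P154

/-- Sanity check: `gwProb d n` is a probability distribution on the trees of height `n`. -/
theorem gwProb_hasSum (d : ℝ) (hd : 0 ≤ d) (n : ℕ) :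
    (∀ T : Tr n, 0 ≤ gwProb d n T) ∧ HasSum (fun T : Tr n => gwProb d n T) 1 := by
  refine ⟨gwProb_nonneg hd n, ?_⟩
  have h := (GWAux.summable_gw hd n).hasSum
  rwa [GWAux.tsum_gw hd n] at h

/-- For three states and `0 ≤ lam ≤ 1`: if `d * lam ^ 2 ≤ 1`, then `a_n` tends to `0`, both for the
rooted `d`-ary tree, `d ≥ 2` an integer, and for the Galton-Watson tree with Poisson(`d`)
offspring, `d > 0` real. -/
theorem result (lam : ℝ) (h0 : 0 ≤ lam) (h1 : lam ≤ 1) :
    (∀ d : ℕ, 2 ≤ d → (d : ℝ) * lam ^ 2 ≤ 1 → Tendsto (aReg 3 lam d) atTop (𝓝 0)) ∧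
    (∀ d : ℝ, 0 < d → d * lam ^ 2 ≤ 1 → Tendsto (aGW 3 lam d) atTop (𝓝 0)) :=
  ⟨fun d hd hdl => Pot.reg 3 (by norm_num) lam h0 h1 (pot3 lam h0 h1) d hd hdl,
    fun d hd hdl => Pot.gw 3 (by norm_num) lam h0 h1 (pot3 lam h0 h1) d hd hdl⟩

end Vale.Agent.Results.P154.FerroThree
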