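import Vale.Agent.Lib.P154.Ineq3.Pot3
import Vale.Agent.Lib.P154.PotGW
import Vale.Agent.Lib.P154.Ineq4.Pot4
import Vale.Agent.Lib.P154.Pot2Tree
import Vale.Agent.Lib.P154.Pot2GW
import Vale.Agent.Lib.P154.Subcrit
import Vale.Agent.Lib.P154.Neg.CkFinal

/-!
Three- and four-state Potts channels on trees: nonreconstruction holds at and below the
Kesten-Stigum bound, on every regular tree and on every Poisson Galton-Watson tree, for three
states and every admissible eigenvalue, and for four states and every nonnegative eigenvalue.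
-/

namespace Vale.Agent.Results.P154.NonRec

open Filter Topology
open Vale.Agent.Lib.P154

/-- Sanity check: `gwProb d n` is a probability distribution on the trees of height `n`. -/
theorem gwProb_hasSum (d : ℝ) (hd : 0 ≤ d) (n : ℕ) :
    (∀ T : Tr n, 0 ≤ gwProb d n T) ∧ HasSum (fun T : Tr n => gwProb d n T) 1 := by
  refine ⟨gwProb_nonneg hd n, ?_⟩
  have h := (GWAux.summable_gw hd n).hasSum
  rwa [GWAux.tsum_gw hd n] at h

/-- For `q = 3` and `-1/2 ≤ lam ≤ 1`, and for `q = 4` and `0 ≤ lam ≤ 1`: if `d * lam ^ 2 ≤ 1`, then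
`a_n` tends to `0`, both for the rooted `d`-ary tree, `d ≥ 2` an integer, and for the Galton-Watson
tree with Poisson(`d`) offspring, `d > 0` real. -/
theorem result (q : ℕ) (lam : ℝ)
    (hq : (q = 3 ∧ -(1 / 2) ≤ lam ∧ lam ≤ 1) ∨ (q = 4 ∧ 0 ≤ lam ∧ lam ≤ 1)) :
    (∀ d : ℕ, 2 ≤ d → (d : ℝ) * lam ^ 2 ≤ 1 → Tendsto (aReg q lam d) atTop (𝓝 0)) ∧
    (∀ d : ℝ, 0 < d → d * lam ^ 2 ≤ 1 → Tendsto (aGW q lam d) atTop (𝓝 0)) := by
  rcases hq with ⟨rfl, h0, h1⟩ | ⟨rfl, h0, h1⟩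
  · rcases lt_or_ge lam 0 with hn | hn
    · exact ⟨fun d _ hdl => Neg.neg_reg lam h0 hn d hdl,
        fun d hd hdl => Neg.neg_gw lam h0 hn d hd hdl⟩
    · exact ⟨fun d hd hdl => Pot.reg 3 (by norm_num) lam hn h1 (pot3 lam hn h1) d hd hdl,
        fun d hd hdl => Pot.gw 3 (by norm_num) lam hn h1 (pot3 lam hn h1) d hd hdl⟩
  · rcases h1.lt_or_eq with h1' | rfl
    · exact ⟨fun d hd hdl => Pot2.reg 4 (by norm_num) lam h0 h1 (Q4.pot4 lam h0 h1') d hd hdl,
        fun d hd hdl => Pot2.gw 4 (by norm_num) lam h0 h1 (Q4.pot4 lam h0 h1') d hd hdl⟩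
    · refine ⟨fun d hd hdl => ?_, fun d hd hdl => ?_⟩
      · exfalso
        have : (2 : ℝ) ≤ d := by exact_mod_cast hd
        linarith
      · exact gw_subcritical 4 (by norm_num) 1 (by norm_num) le_rfl d hd (by linarith)

end Vale.Agent.Results.P154.NonRec
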